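import Vale.Agent.P129R.Main2

namespace Vale.Agent.Results.P129.AllSpaces

open MeasureTheory

universe u v

theorem result (μ : @Measure ℝ ⊤) (hμ : μ Set.univ = 1) (h0 : ∀ x : ℝ, μ {x} = 0)
    (𝕜 : Type v) [RCLike 𝕜] (X : Type u) [NormedAddCommGroup X] [NormedSpace 𝕜 X]
    [CompleteSpace X] (hX : ¬ FiniteDimensional 𝕜 X) :
    ∃ M : Submodule 𝕜 X, IsClosed (M : Set X) ∧ TopologicalSpace.SeparableSpace (X ⧸ M) ∧
      ¬ FiniteDimensional 𝕜 (X ⧸ M) :=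
  Vale.Agent.P129R.sq_of_diffuse μ (@IsProbabilityMeasure.mk ℝ ⊤ μ hμ) h0 hX

end Vale.Agent.Results.P129.AllSpaces
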