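import Vale.Agent.P129H.Core

namespace Vale.Agent.Results.P129.CovNull

open Filter MeasureTheory Vale.Agent.P129H

universe u v

/-- `X` has a separable infinite-dimensional quotient by a closed subspace. -/
def HasSepQuot (𝕜 : Type v) [RCLike 𝕜] (X : Type u) [NormedAddCommGroup X] [NormedSpace 𝕜 X] :
    Prop :=
  ∃ M : Submodule 𝕜 X, IsClosed (M : Set X) ∧ TopologicalSpace.SeparableSpace (X ⧸ M) ∧
    ¬ FiniteDimensional 𝕜 (X ⧸ M)

/-- Least cardinality of a dense subset. -/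
noncomputable def dens (X : Type u) [TopologicalSpace X] : Cardinal.{u} :=
  sInf {c | ∃ D : Set X, Dense D ∧ Cardinal.mk D = c}

/-- Least cardinality of a family of Lebesgue null sets covering the real line. -/
noncomputable def covNull : Cardinal.{0} :=
  sInf {c | ∃ 𝒜 : Set (Set ℝ), (∀ A ∈ 𝒜, volume A = 0) ∧ ⋃₀ 𝒜 = Set.univ ∧ Cardinal.mk 𝒜 = c}

/-- Least cardinality of a family of slaloms of width `h` that no point of the product of the
intervals `[0, b n)` eventually avoids. -/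
noncomputable def antiLoc (b h : ℕ → ℕ) : Cardinal.{0} :=
  sInf {c | ∃ 𝒮 : Set (ℕ → Finset ℕ), (∀ S ∈ 𝒮, ∀ n, (S n).card ≤ h n) ∧
    (¬ ∃ w : ℕ → ℕ, (∀ n, w n < b n) ∧ ∀ S ∈ 𝒮, ∀ᶠ n in atTop, w n ∉ S n) ∧ Cardinal.mk 𝒮 = c}

theorem exists_dense (X : Type u) [TopologicalSpace X] :
    ∃ D : Set X, Dense D ∧ Cardinal.mk D = dens X :=
  csInf_mem (s := {c | ∃ D : Set X, Dense D ∧ Cardinal.mk D = c}) ⟨_, Set.univ, dense_univ, rfl⟩

theorem result (𝕜 : Type v) [RCLike 𝕜] (X : Type u) [NormedAddCommGroup X] [NormedSpace 𝕜 X]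
    [CompleteSpace X] (hX : ¬ FiniteDimensional 𝕜 X) :
    (Cardinal.lift.{0} (dens X) < Cardinal.lift.{u} covNull → HasSepQuot 𝕜 X) ∧
    (∀ b h : ℕ → ℕ, Tendsto h atTop atTop →
      Cardinal.lift.{0} (dens X) < Cardinal.lift.{u} (antiLoc b h) → HasSepQuot 𝕜 X) ∧
    (¬ HasSepQuot 𝕜 X → ∃ φ : ℝ → StrongDual 𝕜 X, (∀ t, ‖φ t‖ = 1) ∧
      ∀ x : X, ∀ᵐ t ∂(volume : Measure ℝ), φ t x = 0) := by
  have h3 : ¬ HasSepQuot 𝕜 X → ∃ φ : ℝ → StrongDual 𝕜 X, (∀ t, ‖φ t‖ = 1) ∧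
      ∀ x : X, ∀ᵐ t ∂(volume : Measure ℝ), φ t x = 0 := by
    intro hn
    obtain ⟨G, hG1, hG2⟩ := exists_random hX
    have hnd : ∀ t, ¬ Dense (bdd (G t) : Set X) := fun t hd => hn (sq_of_bdd hd (hG1 t))
    choose φ hφ1 hφ2 using fun t => exists_annihilator (hnd t)
    refine ⟨φ, hφ1, fun x => ?_⟩
    filter_upwards [hG2 x] with t ht
    exact hφ2 t x ht
  obtain ⟨D, hD, hDc⟩ := exists_dense X
  refine ⟨fun hlt => ?_, fun b h hh hlt => ?_, h3⟩
  · by_contra hn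
    obtain ⟨φ, hφ1, hφ2⟩ := h3 hn
    let f : X → Set ℝ := fun x => {t | ¬ φ t x = 0}
    have hcov : ⋃₀ (f '' D) = Set.univ := by
      rw [Set.eq_univ_iff_forall]
      intro t
      by_contra ht
      have h0 : φ t = 0 := by
        ext x
        have hcl : IsClosed {x | φ t x = 0} := isClosed_eq (φ t).continuous continuous_const
        refine closure_minimal (t := {x | φ t x = 0}) (fun d hd => ?_) hcl (hD x)
        by_contra hc
        exact ht ⟨f d, ⟨d, hd, rfl⟩, hc⟩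
      have := hφ1 t
      rw [h0, norm_zero] at this
      exact zero_ne_one this
    have h1 : covNull ≤ Cardinal.mk (f '' D) := by
      refine csInf_le' ⟨f '' D, ?_, hcov, rfl⟩
      rintro _ ⟨x, _, rfl⟩
      exact ae_iff.1 (hφ2 x)
    have h2 : Cardinal.lift.{u} (Cardinal.mk (f '' D)) ≤ Cardinal.lift.{0} (Cardinal.mk D) :=
      Cardinal.mk_image_le_lift
    rw [hDc] at h2
    exact absurd hlt (not_lt.2 ((Cardinal.lift_le.2 h1).trans h2))
  · obtain ⟨g, S, hS1, hS2⟩ := exists_slaloms hX b h hh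
    have hw : ∃ w : ℕ → ℕ, (∀ n, w n < b n) ∧ ∀ T ∈ S '' D, ∀ᶠ n in atTop, w n ∉ T n := by
      by_contra hc
      have h1 : antiLoc b h ≤ Cardinal.mk (S '' D) := by
        refine csInf_le' ⟨S '' D, ?_, hc, rfl⟩
        rintro _ ⟨x, _, rfl⟩
        exact hS1 x
      have h2 : Cardinal.lift.{u} (Cardinal.mk (S '' D)) ≤ Cardinal.lift.{0} (Cardinal.mk D) :=
        Cardinal.mk_image_le_lift
      rw [hDc] at h2
      exact absurd hlt (not_lt.2 ((Cardinal.lift_le.2 h1).trans h2))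
    obtain ⟨w, hw1, hw2⟩ := hw
    obtain ⟨h4, h5⟩ := hS2 w hw1
    exact sq_of_bdd (hD.mono fun x hx => h5 x (hw2 _ ⟨x, hx, rfl⟩)) h4

end Vale.Agent.Results.P129.CovNull
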