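import Vale.Agent.P129.Ev
import Vale.Agent.P129.SQ
import Vale.Agent.P129.Cov

namespace Vale.Agent.Results.P129.SmallDensity

open Vale.Agent.P129

universe u v

theorem result (𝕜 : Type v) [RCLike 𝕜] (X : Type u) [NormedAddCommGroup X] [NormedSpace 𝕜 X]
    [CompleteSpace X] (hX : ¬ FiniteDimensional 𝕜 X) (D : Set X) (hD : Dense D)
    (h : Cardinal.lift.{0} (Cardinal.mk D) < Cardinal.lift.{u} covN ∨
      ∃ b : ℕ → ℕ, Cardinal.lift.{0} (Cardinal.mk D) < Cardinal.lift.{u} (evd b)) :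
    ∃ M : Submodule 𝕜 X, IsClosed (M : Set X) ∧ TopologicalSpace.SeparableSpace (X ⧸ M) ∧
      ¬ FiniteDimensional 𝕜 (X ⧸ M) := by
  obtain ⟨b, hb⟩ : ∃ b : ℕ → ℕ, Cardinal.lift.{0} (Cardinal.mk D) < Cardinal.lift.{u} (evd b) :=
    h.elim (fun h => ⟨_, h.trans_le (Cardinal.lift_le.2 covN_le)⟩) id
  obtain ⟨ψ, h1, h2⟩ := exists_seq hX D b hb
  exact sq_of_seq ψ h1 D hD h2

end Vale.Agent.Results.P129.SmallDensity
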